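import Mathlib

/-!
# Averaging over the classes of an equivalence relation on a finite type

`eavg r f x` is the mean of `f` over the class of `x` (a conditional expectation for the uniform
measure).  It is linear, idempotent and symmetric for the counting inner product `eip`; its range
consists of the `r`-invariant functions.  For nested relations the tower property holds, and two
such operators commute as soon as one of them preserves the invariant functions of the other
(for example when the classes of `r` at two `r'`-related points are in a bijection that respects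
`r'`).  The last part is pure algebra for commuting projections.
-/

set_option linter.unusedSectionVars false

namespace Vale.Agent.Lib.P335.H8

open Finset
open Classical

variable {α : Type} [Fintype α]

/-- The counting inner product. -/
noncomputable def eip (f g : α → ℝ) : ℝ := ∑ x, f x * g x

/-- The class of `x`. -/
noncomputable def ecls (r : α → α → Prop) (x : α) : Finset α := univ.filter (fun y => r x y)

/-- The mean over the class. -/
noncomputable def eavg (r : α → α → Prop) (f : α → ℝ) : α → ℝ :=
  fun x => (∑ y ∈ ecls r x, f y) / ((ecls r x).card : ℝ)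

/-- `g` is constant on the classes of `r`. -/
def EInv (r : α → α → Prop) (g : α → ℝ) : Prop := ∀ x y, r x y → g x = g y

variable {r r' : α → α → Prop}

theorem mem_ecls {x y : α} : y ∈ ecls r x ↔ r x y := by simp [ecls]

theorem self_mem_ecls (hr : Equivalence r) (x : α) : x ∈ ecls r x := mem_ecls.2 (hr.refl x)

theorem ecls_eq_of_rel (hr : Equivalence r) {x y : α} (h : r x y) : ecls r y = ecls r x := by
  ext z
  rw [mem_ecls, mem_ecls]
  exact ⟨fun hz => hr.trans h hz, fun hz => hr.trans (hr.symm h) hz⟩

theorem card_ecls_pos (hr : Equivalence r) (x : α) : 0 < ((ecls r x).card : ℝ) := by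
  exact_mod_cast Finset.card_pos.2 ⟨x, self_mem_ecls hr x⟩

theorem sum_ecls (x : α) (F : α → ℝ) :
    ∑ y ∈ ecls r x, F y = ∑ y : α, if r x y then F y else 0 := by
  unfold ecls; rw [Finset.sum_filter]

theorem eavg_eq_of_rel (hr : Equivalence r) (f : α → ℝ) {x y : α} (h : r x y) :
    eavg r f y = eavg r f x := by
  unfold eavg
  rw [ecls_eq_of_rel hr h]

theorem eavg_inv (hr : Equivalence r) (f : α → ℝ) : EInv r (eavg r f) :=
  fun _ _ h => (eavg_eq_of_rel hr f h).symm

theorem eavg_of_inv (hr : Equivalence r) {g : α → ℝ} (hg : EInv r g) : eavg r g = g := by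
  funext x
  unfold eavg
  have h1 : ∑ y ∈ ecls r x, g y = ∑ _y ∈ ecls r x, g x :=
    Finset.sum_congr rfl fun y hy => (hg x y (mem_ecls.1 hy)).symm
  rw [h1, Finset.sum_const, nsmul_eq_mul]
  have hpos := card_ecls_pos hr x
  field_simp

theorem eavg_idem (hr : Equivalence r) (f : α → ℝ) : eavg r (eavg r f) = eavg r f :=
  eavg_of_inv hr (eavg_inv hr f)

theorem eavg_add (f g : α → ℝ) : eavg r (f + g) = eavg r f + eavg r g := by
  funext x
  simp [eavg, Finset.sum_add_distrib, add_div]

theorem eavg_smul (a : ℝ) (f : α → ℝ) : eavg r (a • f) = a • eavg r f := by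
  funext x
  simp [eavg, ← Finset.mul_sum, mul_div_assoc]

theorem eavg_sub (f g : α → ℝ) : eavg r (f - g) = eavg r f - eavg r g := by
  funext x
  simp [eavg, Finset.sum_sub_distrib, sub_div]

theorem eavg_zero : eavg r (0 : α → ℝ) = 0 := by
  funext x
  simp [eavg]

/-- `eavg r` is symmetric for the counting inner product. -/
theorem eavg_symm (hr : Equivalence r) (f g : α → ℝ) : eip (eavg r f) g = eip f (eavg r g) := by
  have hL : eip (eavg r f) g = ∑ x : α, ∑ y : α,
      if r x y then f y * g x / ((ecls r x).card : ℝ) else 0 := by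
    unfold eip eavg
    refine Finset.sum_congr rfl fun x _ => ?_
    rw [sum_ecls, Finset.sum_div, Finset.sum_mul]
    refine Finset.sum_congr rfl fun y _ => ?_
    split_ifs <;> ring
  have hR : eip f (eavg r g) = ∑ y : α, ∑ x : α,
      if r y x then f y * g x / ((ecls r y).card : ℝ) else 0 := by
    unfold eip eavg
    refine Finset.sum_congr rfl fun y _ => ?_
    rw [sum_ecls, Finset.sum_div, Finset.mul_sum]
    refine Finset.sum_congr rfl fun x _ => ?_
    split_ifs <;> ring
  rw [hL, hR, Finset.sum_comm]
  refine Finset.sum_congr rfl fun y _ => Finset.sum_congr rfl fun x _ => ?_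
  by_cases h : r y x
  · have h' : r x y := hr.symm h
    rw [if_pos h, if_pos h', ecls_eq_of_rel hr h]
  · have h' : ¬ r x y := fun h'' => h (hr.symm h'')
    rw [if_neg h, if_neg h']

/-- Two functions with the same inner products against all test functions are equal. -/
theorem eq_of_eip_eq {g h : α → ℝ} (H : ∀ k : α → ℝ, eip k g = eip k h) : g = h := by
  have h1 := H (g - h)
  have h0 : ∑ x, (g x - h x) ^ 2 = 0 := by
    have h2 : eip (g - h) g - eip (g - h) h = 0 := by rw [h1]; ring
    unfold eip at h2
    rw [← Finset.sum_sub_distrib] at h2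
    rw [← h2]
    refine Finset.sum_congr rfl fun x _ => ?_
    simp only [Pi.sub_apply]; ring
  funext x
  have h3 := (Finset.sum_eq_zero_iff_of_nonneg (fun x _ => sq_nonneg (g x - h x))).1 h0 x
    (Finset.mem_univ x)
  have h4 : g x - h x = 0 := by
    rcases pow_eq_zero_iff (n := 2) (by norm_num) |>.1 h3 with h5
    exact h5
  linarith

/-- Tower property, first form: a finer average does nothing to a coarser one. -/
theorem eavg_tower (hr : Equivalence r) (hr' : Equivalence r') (h : ∀ x y, r x y → r' x y)
    (f : α → ℝ) : eavg r (eavg r' f) = eavg r' f :=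
  eavg_of_inv hr (fun x y hxy => eavg_inv hr' f x y (h x y hxy))

/-- Tower property, second form. -/
theorem eavg_tower' (hr : Equivalence r) (hr' : Equivalence r') (h : ∀ x y, r x y → r' x y)
    (f : α → ℝ) : eavg r' (eavg r f) = eavg r' f := by
  refine eq_of_eip_eq fun k => ?_
  rw [← eavg_symm hr', ← eavg_symm hr, eavg_tower hr hr' h, ← eavg_symm hr']

/-- If `eavg r` preserves the `r'`-invariant functions, the two averaging operators commute. -/
theorem eavg_comm_of_preserves (hr : Equivalence r) (hr' : Equivalence r')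
    (hp : ∀ g : α → ℝ, EInv r' g → EInv r' (eavg r g)) (f : α → ℝ) :
    eavg r (eavg r' f) = eavg r' (eavg r f) := by
  have h1 : ∀ g : α → ℝ, eavg r' (eavg r (eavg r' g)) = eavg r (eavg r' g) := fun g =>
    eavg_of_inv hr' (hp _ (eavg_inv hr' g))
  refine eq_of_eip_eq fun k => ?_
  calc eip k (eavg r (eavg r' f)) = eip k (eavg r' (eavg r (eavg r' f))) := by rw [h1]
    _ = eip (eavg r' (eavg r (eavg r' k))) f := by
        rw [← eavg_symm hr', ← eavg_symm hr, ← eavg_symm hr']
    _ = eip (eavg r (eavg r' k)) f := by rw [h1]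
    _ = eip k (eavg r' (eavg r f)) := by rw [eavg_symm hr, eavg_symm hr']

/-- A sufficient condition: classes of `r` at `r'`-related points are matched by maps that
respect `r'`. -/
theorem eavg_preserves_of_bij
    (hb : ∀ u v : α, r' u v → ∃ φ ψ : α → α,
      (∀ w, r u w → r v (φ w) ∧ r' w (φ w) ∧ ψ (φ w) = w) ∧
      (∀ w, r v w → r u (ψ w) ∧ φ (ψ w) = w))
    (g : α → ℝ) (hg : EInv r' g) : EInv r' (eavg r g) := by
  intro u v huv
  obtain ⟨φ, ψ, h1, h2⟩ := hb u v huv
  have hsum : ∀ G : α → ℝ, EInv r' G → ∑ w ∈ ecls r u, G w = ∑ w ∈ ecls r v, G w := by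
    intro G hG
    refine Finset.sum_bij' (fun w _ => φ w) (fun w _ => ψ w) ?_ ?_ ?_ ?_ ?_
    · intro w hw; exact mem_ecls.2 (h1 w (mem_ecls.1 hw)).1
    · intro w hw; exact mem_ecls.2 (h2 w (mem_ecls.1 hw)).1
    · intro w hw; exact (h1 w (mem_ecls.1 hw)).2.2
    · intro w hw; exact (h2 w (mem_ecls.1 hw)).2
    · intro w hw; exact hG w (φ w) (h1 w (mem_ecls.1 hw)).2.1
  have hc : ((ecls r u).card : ℝ) = ((ecls r v).card : ℝ) := by
    have h := hsum (fun _ => (1 : ℝ)) (fun _ _ _ => rfl)
    simpa using h
  unfold eavg
  rw [hsum g hg, hc]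

/-! ### Inner-product identities -/

theorem eip_comm (f g : α → ℝ) : eip f g = eip g f := by
  unfold eip; exact Finset.sum_congr rfl fun x _ => mul_comm _ _

theorem eip_add_right (f g h : α → ℝ) : eip f (g + h) = eip f g + eip f h := by
  unfold eip; rw [← Finset.sum_add_distrib]
  exact Finset.sum_congr rfl fun x _ => by simp [mul_add]

theorem eip_sub_right (f g h : α → ℝ) : eip f (g - h) = eip f g - eip f h := by
  unfold eip; rw [← Finset.sum_sub_distrib]
  exact Finset.sum_congr rfl fun x _ => by simp [mul_sub]

theorem eip_add_left (f g h : α → ℝ) : eip (f + g) h = eip f h + eip g h := by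
  rw [eip_comm, eip_add_right, eip_comm h f, eip_comm h g]

theorem eip_sub_left (f g h : α → ℝ) : eip (f - g) h = eip f h - eip g h := by
  rw [eip_comm, eip_sub_right, eip_comm h f, eip_comm h g]

theorem eip_self_nonneg (f : α → ℝ) : 0 ≤ eip f f := by
  unfold eip; exact Finset.sum_nonneg fun x _ => mul_self_nonneg _

theorem eip_eavg_self (hr : Equivalence r) (f : α → ℝ) :
    eip f (eavg r f) = eip (eavg r f) (eavg r f) := by
  conv_rhs => rw [eavg_symm hr, eavg_idem hr]

/-- `⟨f - E f, f - E f⟩ = ⟨f, f⟩ - ⟨f, E f⟩`. -/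
theorem eip_sub_eavg (hr : Equivalence r) (f : α → ℝ) :
    eip (f - eavg r f) (f - eavg r f) = eip f f - eip f (eavg r f) := by
  rw [eip_sub_left, eip_sub_right, eip_sub_right, eip_comm (eavg r f) f, eip_eavg_self hr]
  ring

end Vale.Agent.Lib.P335.H8
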