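import Vale.Agent.Lib.P335.Defs
import Vale.Agent.Lib.P335.H8.EqAvg

/-!
# Slot-set averaging operators on graphs with a given degree sequence

For a set `Sg` of vertex pairs (the slots), `avgS Sg f G` is the mean of `f` over all graphs in
`Omega d` that have the same edges as `G` outside `Sg`.  These operators are symmetric idempotents;
`avgS Sg` absorbs `avgS Sg'` when `Sg ⊆ Sg'`, and **`avgS Sg` and `avgS Sg'` commute whenever `Sg`
and `Sg'` are disjoint** (the graph with the `Sg`-edges of one graph and the other edges of a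
second one has the right degrees).
-/

set_option linter.unusedSectionVars false

namespace Vale.Agent.Lib.P335.H8

open Finset
open Classical
open Vale.Agent.Lib.P335

variable {n : ℕ} {d : Fin n → ℕ}

/-- `G` and `G'` have the same edges outside the slot set `Sg`. -/
def AgreeS (Sg : Finset (Sym2 (Fin n))) (G G' : Omega d) : Prop :=
  ∀ e, e ∉ Sg → (e ∈ G.1 ↔ e ∈ G'.1)

theorem agreeS_equiv (Sg : Finset (Sym2 (Fin n))) : Equivalence (AgreeS (d := d) Sg) :=
  ⟨fun _ _ _ => Iff.rfl, fun h e he => (h e he).symm,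
    fun h1 h2 e he => (h1 e he).trans (h2 e he)⟩

theorem agreeS_mono {Sg Sg' : Finset (Sym2 (Fin n))} (h : Sg ⊆ Sg') {G G' : Omega d}
    (hG : AgreeS Sg G G') : AgreeS Sg' G G' := fun e he => hG e (fun h' => he (h h'))

/-- The mean of `f` over the graphs that agree with `G` outside `Sg`. -/
noncomputable def avgS (Sg : Finset (Sym2 (Fin n))) (f : Omega d → ℝ) : Omega d → ℝ :=
  eavg (AgreeS Sg) f

theorem avgS_symm (Sg : Finset (Sym2 (Fin n))) (f g : Omega d → ℝ) :
    eip (avgS Sg f) g = eip f (avgS Sg g) := eavg_symm (agreeS_equiv Sg) f g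

theorem avgS_idem (Sg : Finset (Sym2 (Fin n))) (f : Omega d → ℝ) :
    avgS Sg (avgS Sg f) = avgS Sg f := eavg_idem (agreeS_equiv Sg) f

theorem avgS_add (Sg : Finset (Sym2 (Fin n))) (f g : Omega d → ℝ) :
    avgS Sg (f + g) = avgS Sg f + avgS Sg g := eavg_add f g

theorem avgS_sub (Sg : Finset (Sym2 (Fin n))) (f g : Omega d → ℝ) :
    avgS Sg (f - g) = avgS Sg f - avgS Sg g := eavg_sub f g

theorem avgS_smul (Sg : Finset (Sym2 (Fin n))) (a : ℝ) (f : Omega d → ℝ) :
    avgS Sg (a • f) = a • avgS Sg f := eavg_smul a f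

theorem avgS_eq_of_agree (Sg : Finset (Sym2 (Fin n))) (f : Omega d → ℝ) {G G' : Omega d}
    (h : AgreeS Sg G G') : avgS Sg f G' = avgS Sg f G := eavg_eq_of_rel (agreeS_equiv Sg) f h

theorem avgS_of_inv (Sg : Finset (Sym2 (Fin n))) {g : Omega d → ℝ}
    (hg : ∀ G G' : Omega d, AgreeS Sg G G' → g G = g G') : avgS Sg g = g :=
  eavg_of_inv (agreeS_equiv Sg) hg

/-- Tower property for nested slot sets. -/
theorem avgS_tower {Sg Sg' : Finset (Sym2 (Fin n))} (h : Sg ⊆ Sg') (f : Omega d → ℝ) :
    avgS Sg (avgS Sg' f) = avgS Sg' f ∧ avgS Sg' (avgS Sg f) = avgS Sg' f :=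
  ⟨eavg_tower (agreeS_equiv Sg) (agreeS_equiv Sg') (fun _ _ hxy => agreeS_mono h hxy) f,
    eavg_tower' (agreeS_equiv Sg) (agreeS_equiv Sg') (fun _ _ hxy => agreeS_mono h hxy) f⟩

/-! ### Mixing two graphs along a slot set -/

/-- The edges of `K` inside `Sg` together with the edges of `H` outside `Sg`. -/
def mixE (Sg K H : Finset (Sym2 (Fin n))) : Finset (Sym2 (Fin n)) :=
  K.filter (fun e => e ∈ Sg) ∪ H.filter (fun e => e ∉ Sg)

theorem mem_mixE {Sg K H : Finset (Sym2 (Fin n))} {e : Sym2 (Fin n)} :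
    e ∈ mixE Sg K H ↔ (e ∈ Sg ∧ e ∈ K) ∨ (e ∉ Sg ∧ e ∈ H) := by
  simp only [mixE, mem_union, mem_filter]
  tauto

theorem deg_split (E Sg : Finset (Sym2 (Fin n))) (z : Fin n) :
    (nbrs E z).card = (E.filter (fun e => e ∈ Sg ∧ z ∈ e)).card
      + (E.filter (fun e => e ∉ Sg ∧ z ∈ e)).card := by
  rw [card_nbrs_eq, ← Finset.card_union_of_disjoint]
  · congr 1
    ext e
    simp only [mem_filter, mem_union]
    tauto
  · rw [Finset.disjoint_left]
    intro e h1 h2
    simp only [mem_filter] at h1 h2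
    exact h2.2.1 h1.2.1

theorem mix_isRealization {Sg Sg' : Finset (Sym2 (Fin n))} (hd : Disjoint Sg Sg')
    {u v w : Omega d} (huv : AgreeS Sg' u v) (huw : AgreeS Sg u w) :
    IsRealization d (mixE Sg w.1 v.1) := by
  refine ⟨fun e he => ?_, fun z => ?_⟩
  · rcases mem_mixE.1 he with h | h
    · exact w.2.1 e h.2
    · exact v.2.1 e h.2
  · have e1 := deg_split u.1 Sg z
    have e2 := deg_split v.1 Sg z
    have e3 := deg_split w.1 Sg z
    have em := deg_split (mixE Sg w.1 v.1) Sg z
    rw [u.2.2 z] at e1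
    rw [v.2.2 z] at e2
    rw [w.2.2 z] at e3
    have hA : (u.1.filter (fun e => e ∈ Sg ∧ z ∈ e)) = (v.1.filter (fun e => e ∈ Sg ∧ z ∈ e)) := by
      ext e
      simp only [mem_filter]
      constructor
      · rintro ⟨he, hs, hz⟩
        exact ⟨(huv e (Finset.disjoint_left.1 hd hs)).1 he, hs, hz⟩
      · rintro ⟨he, hs, hz⟩
        exact ⟨(huv e (Finset.disjoint_left.1 hd hs)).2 he, hs, hz⟩
    have hB : (w.1.filter (fun e => e ∉ Sg ∧ z ∈ e)) = (u.1.filter (fun e => e ∉ Sg ∧ z ∈ e)) := by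
      ext e
      simp only [mem_filter]
      constructor
      · rintro ⟨he, hs, hz⟩
        exact ⟨(huw e hs).2 he, hs, hz⟩
      · rintro ⟨he, hs, hz⟩
        exact ⟨(huw e hs).1 he, hs, hz⟩
    have hM1 : ((mixE Sg w.1 v.1).filter (fun e => e ∈ Sg ∧ z ∈ e))
        = (w.1.filter (fun e => e ∈ Sg ∧ z ∈ e)) := by
      ext e
      simp only [mem_filter, mem_mixE]
      tauto
    have hM2 : ((mixE Sg w.1 v.1).filter (fun e => e ∉ Sg ∧ z ∈ e))
        = (v.1.filter (fun e => e ∉ Sg ∧ z ∈ e)) := by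
      ext e
      simp only [mem_filter, mem_mixE]
      tauto
    rw [hM1, hM2] at em
    rw [hA] at e1
    rw [hB] at e3
    omega

/-- Averaging over `Sg` preserves the functions that do not depend on the slots of a disjoint
set `Sg'`. -/
theorem avgS_preserves {Sg Sg' : Finset (Sym2 (Fin n))} (hd : Disjoint Sg Sg')
    (g : Omega d → ℝ) (hg : EInv (AgreeS (d := d) Sg') g) :
    EInv (AgreeS (d := d) Sg') (avgS Sg g) := by
  refine eavg_preserves_of_bij (r := AgreeS (d := d) Sg) (r' := AgreeS (d := d) Sg') ?_ g hg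
  intro u v huv
  have hvu : AgreeS Sg' v u := (agreeS_equiv Sg').symm huv
  set φ : Omega d → Omega d := fun w =>
    if h : AgreeS Sg u w then ⟨mixE Sg w.1 v.1, mix_isRealization hd huv h⟩ else w with hφ
  set ψ : Omega d → Omega d := fun w =>
    if h : AgreeS Sg v w then ⟨mixE Sg w.1 u.1, mix_isRealization hd hvu h⟩ else w with hψ
  have eφ : ∀ (w : Omega d) (h : AgreeS Sg u w),
      φ w = ⟨mixE Sg w.1 v.1, mix_isRealization hd huv h⟩ := fun w h => by
    simp only [hφ, dif_pos h]
  have eψ : ∀ (w : Omega d) (h : AgreeS Sg v w),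
      ψ w = ⟨mixE Sg w.1 u.1, mix_isRealization hd hvu h⟩ := fun w h => by
    simp only [hψ, dif_pos h]
  refine ⟨φ, ψ, ?_, ?_⟩
  · intro w hw
    have h1 : AgreeS Sg v (⟨mixE Sg w.1 v.1, mix_isRealization hd huv hw⟩ : Omega d) := by
      intro e he
      simp only [mem_mixE]
      tauto
    rw [eφ w hw]
    refine ⟨h1, ?_, ?_⟩
    · intro e he
      simp only [mem_mixE]
      by_cases hs : e ∈ Sg
      · simp [hs]
      · have a1 := hw e hs
        have a2 := huv e he
        simp only [hs, false_and, not_false_eq_true, true_and, false_or]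
        exact a1.symm.trans a2
    · rw [eψ _ h1]
      apply Subtype.ext
      ext e
      simp only [mem_mixE]
      by_cases hs : e ∈ Sg
      · simp [hs]
      · have a1 := hw e hs
        simp only [hs, false_and, not_false_eq_true, true_and, false_or]
        exact a1
  · intro w hw
    have h1 : AgreeS Sg u (⟨mixE Sg w.1 u.1, mix_isRealization hd hvu hw⟩ : Omega d) := by
      intro e he
      simp only [mem_mixE]
      tauto
    rw [eψ w hw]
    refine ⟨h1, ?_⟩
    rw [eφ _ h1]
    apply Subtype.ext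
    ext e
    simp only [mem_mixE]
    by_cases hs : e ∈ Sg
    · simp [hs]
    · have a1 := hw e hs
      simp only [hs, false_and, not_false_eq_true, true_and, false_or]
      exact a1

/-- **Commutation**: the averaging operators of two disjoint slot sets commute. -/
theorem avgS_comm {Sg Sg' : Finset (Sym2 (Fin n))} (hd : Disjoint Sg Sg') (f : Omega d → ℝ) :
    avgS Sg (avgS Sg' f) = avgS Sg' (avgS Sg f) :=
  eavg_comm_of_preserves (agreeS_equiv Sg) (agreeS_equiv Sg') (avgS_preserves hd) f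

end Vale.Agent.Lib.P335.H8
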