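import Vale.Agent.Lib.P335.Gr.Defs
import Vale.Agent.Lib.P335.H8.Slots

/-!
# Graph classes as slot-set classes, and the commutation relations of a pair of vertex sets

`gavg W` (conditional expectation given the graph off the vertex set `W`) is the slot-set average
`avgS (slotsAt W)`, where `slotsAt W` is the set of vertex pairs meeting `W`.  For two vertex sets
`W`, `W'` put `ownS W W' = slotsAt W \ slotsAt W'` (the slots of `W` not shared with `W'`) and
`crossS W W' = slotsAt W ∩ slotsAt W'` (the shared slots; for disjoint `W`, `W'` these are the pairs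
with one end in each).  The three slot sets `ownS W W'`, `ownS W' W`, `crossS W W'` are pairwise
disjoint, which gives all tower and commutation relations between
`gavg W`, `gavg W'`, `avgS (ownS W W')`, `avgS (ownS W' W)` and `avgS (crossS W W')`.
-/

set_option linter.unusedSectionVars false

namespace Vale.Agent.Lib.P335.H8

open Finset
open Classical
open Vale.Agent.Lib.P335 Vale.Agent.Lib.P335.Gr

variable {n : ℕ} {d : Fin n → ℕ}

/-- The slots (vertex pairs) that meet `W`. -/
def slotsAt (W : Finset (Fin n)) : Finset (Sym2 (Fin n)) :=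
  univ.filter (fun e => ∃ v ∈ W, v ∈ e)

theorem mem_slotsAt {W : Finset (Fin n)} {a b : Fin n} : s(a, b) ∈ slotsAt W ↔ a ∈ W ∨ b ∈ W := by
  simp only [slotsAt, mem_filter, mem_univ, true_and, Sym2.mem_iff]
  constructor
  · rintro ⟨v, hv, rfl | rfl⟩
    · exact Or.inl hv
    · exact Or.inr hv
  · rintro (h | h)
    · exact ⟨a, h, Or.inl rfl⟩
    · exact ⟨b, h, Or.inr rfl⟩

/-- Agreement off the vertex set `W` is agreement outside the slot set `slotsAt W`. -/
theorem gagree_iff (W : Finset (Fin n)) (E E' : Finset (Sym2 (Fin n))) :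
    GAgree W E E' ↔ ∀ e, e ∉ slotsAt W → (e ∈ E ↔ e ∈ E') := by
  constructor
  · intro h e
    induction e using Sym2.ind with
    | _ a b =>
      intro he
      rw [mem_slotsAt, not_or] at he
      exact h a b he.1 he.2
  · intro h a b ha hb
    exact h s(a, b) (by rw [mem_slotsAt, not_or]; exact ⟨ha, hb⟩)

theorem gagree_iff_agreeS (W : Finset (Fin n)) (G G' : Omega d) :
    GAgree W G.1 G'.1 ↔ AgreeS (slotsAt W) G G' := gagree_iff W G.1 G'.1

theorem gcls_eq (W : Finset (Fin n)) (G : Omega d) :
    gcls W G = ecls (AgreeS (d := d) (slotsAt W)) G := by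
  unfold gcls ecls
  exact Finset.filter_congr fun G' _ => gagree_iff_agreeS W G G'

/-- The class average of a vertex set is a slot-set average. -/
theorem gavg_eq_avgS (W : Finset (Fin n)) (f : Omega d → ℝ) : gavg W f = avgS (slotsAt W) f := by
  funext G
  unfold gavg avgS eavg
  rw [gcls_eq]

theorem ip_eq_eip {α : Type} [Fintype α] (f g : α → ℝ) : Bip.ip f g = eip f g := rfl

/-- The slots of `W` that are not slots of `W'`. -/
def ownS (W W' : Finset (Fin n)) : Finset (Sym2 (Fin n)) := slotsAt W \ slotsAt W'

/-- The slots shared by `W` and `W'`. -/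
def crossS (W W' : Finset (Fin n)) : Finset (Sym2 (Fin n)) := slotsAt W ∩ slotsAt W'

theorem crossS_comm (W W' : Finset (Fin n)) : crossS W W' = crossS W' W := Finset.inter_comm _ _

theorem mem_crossS_of_disjoint {W W' : Finset (Fin n)} (h : Disjoint W W') {a b : Fin n} :
    s(a, b) ∈ crossS W W' ↔ (a ∈ W ∧ b ∈ W') ∨ (a ∈ W' ∧ b ∈ W) := by
  simp only [crossS, mem_inter, mem_slotsAt]
  have h1 : ∀ x, x ∈ W → x ∉ W' := fun x hx => Finset.disjoint_left.1 h hx
  constructor
  · rintro ⟨ha | hb, ha' | hb'⟩
    · exact absurd ha' (h1 a ha)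
    · exact Or.inl ⟨ha, hb'⟩
    · exact Or.inr ⟨ha', hb⟩
    · exact absurd hb' (h1 b hb)
  · rintro (⟨ha, hb⟩ | ⟨ha, hb⟩)
    · exact ⟨Or.inl ha, Or.inr hb⟩
    · exact ⟨Or.inr hb, Or.inl ha⟩

theorem slotsAt_eq_union (W W' : Finset (Fin n)) : slotsAt W = ownS W W' ∪ crossS W W' := by
  ext e
  simp only [ownS, crossS, mem_union, mem_sdiff, mem_inter]
  tauto

theorem ownS_subset (W W' : Finset (Fin n)) : ownS W W' ⊆ slotsAt W := Finset.sdiff_subset

theorem crossS_subset_left (W W' : Finset (Fin n)) : crossS W W' ⊆ slotsAt W :=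
  Finset.inter_subset_left

theorem crossS_subset_right (W W' : Finset (Fin n)) : crossS W W' ⊆ slotsAt W' :=
  Finset.inter_subset_right

theorem disjoint_ownS_ownS (W W' : Finset (Fin n)) : Disjoint (ownS W W') (ownS W' W) := by
  rw [Finset.disjoint_left]
  intro e h1 h2
  simp only [ownS, mem_sdiff] at h1 h2
  exact h2.2 h1.1

theorem disjoint_ownS_crossS (W W' : Finset (Fin n)) : Disjoint (ownS W W') (crossS W W') := by
  rw [Finset.disjoint_left]
  intro e h1 h2
  simp only [ownS, crossS, mem_sdiff, mem_inter] at h1 h2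
  exact h1.2 h2.2

theorem disjoint_ownS_crossS' (W W' : Finset (Fin n)) : Disjoint (ownS W' W) (crossS W W') := by
  rw [crossS_comm]; exact disjoint_ownS_crossS W' W

theorem disjoint_slotsAt_ownS (W W' : Finset (Fin n)) : Disjoint (slotsAt W) (ownS W' W) := by
  rw [Finset.disjoint_left]
  intro e h1 h2
  simp only [ownS, mem_sdiff] at h2
  exact h2.2 h1

/-! ### Tower relations: `gavg W` absorbs the averages over its own slots and the shared slots -/

theorem gavg_ownS (W W' : Finset (Fin n)) (f : Omega d → ℝ) :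
    avgS (ownS W W') (gavg W f) = gavg W f ∧ gavg W (avgS (ownS W W') f) = gavg W f := by
  simp only [gavg_eq_avgS]
  exact avgS_tower (ownS_subset W W') f

theorem gavg_crossS (W W' : Finset (Fin n)) (f : Omega d → ℝ) :
    avgS (crossS W W') (gavg W f) = gavg W f ∧ gavg W (avgS (crossS W W') f) = gavg W f := by
  simp only [gavg_eq_avgS]
  exact avgS_tower (crossS_subset_left W W') f

theorem gavg_crossS' (W W' : Finset (Fin n)) (f : Omega d → ℝ) :
    avgS (crossS W W') (gavg W' f) = gavg W' f ∧ gavg W' (avgS (crossS W W') f) = gavg W' f := by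
  simp only [gavg_eq_avgS]
  exact avgS_tower (crossS_subset_right W W') f

/-! ### Commutation relations -/

/-- The averages over the private slots of `W` and of `W'` commute. -/
theorem ownS_comm (W W' : Finset (Fin n)) (f : Omega d → ℝ) :
    avgS (ownS W W') (avgS (ownS W' W) f) = avgS (ownS W' W) (avgS (ownS W W') f) :=
  avgS_comm (disjoint_ownS_ownS W W') f

/-- The average over the private slots of `W` commutes with the average over the shared slots. -/
theorem ownS_crossS_comm (W W' : Finset (Fin n)) (f : Omega d → ℝ) :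
    avgS (ownS W W') (avgS (crossS W W') f) = avgS (crossS W W') (avgS (ownS W W') f) :=
  avgS_comm (disjoint_ownS_crossS W W') f

theorem ownS_crossS_comm' (W W' : Finset (Fin n)) (f : Omega d → ℝ) :
    avgS (ownS W' W) (avgS (crossS W W') f) = avgS (crossS W W') (avgS (ownS W' W) f) :=
  avgS_comm (disjoint_ownS_crossS' W W') f

/-- `gavg W` commutes with the average over the private slots of `W'`. -/
theorem gavg_ownS_comm (W W' : Finset (Fin n)) (f : Omega d → ℝ) :
    gavg W (avgS (ownS W' W) f) = avgS (ownS W' W) (gavg W f) := by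
  simp only [gavg_eq_avgS]
  exact avgS_comm (disjoint_slotsAt_ownS W W') f

/-- Symmetry of the slot-set averages for the inner product `Bip.ip`. -/
theorem avgS_symm_ip (Sg : Finset (Sym2 (Fin n))) (f g : Omega d → ℝ) :
    Bip.ip (avgS Sg f) g = Bip.ip f (avgS Sg g) := avgS_symm Sg f g

end Vale.Agent.Lib.P335.H8
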