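import Vale.Agent.Lib.P335.H8.PairRel
import Vale.Agent.Lib.P335.Gr.Flip

/-!
# Slot relations of the flip of two disjoint vertex pairs

For two vertex sets `b`, `b'` the flip `Gr.flip b b'` changes only the cross slots, and the
relations used for the pair inequality hold:

* `cross_eq_crossS`: for disjoint `b`, `b'` the cross slots are the shared slots `crossS b b'`;
* `agreeS_crossS_flip`: a graph and its flip agree outside the cross slots;
* `agreeS_ownS_flip`: the flip respects agreement outside the private slots of `b` (or of `b'`);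
* `card_cross_eq`: the number of cross edges is constant on the classes of `b`;
* `agreeS_ownS_of_isAlt`: two alternating graphs in one class of `b` agree outside the private
  slots of `b` after possibly flipping one of them;
* `avgS_crossS_apply`: the average over the cross slots is the mean of `f G` and `f (flip G)`.
-/

namespace Vale.Agent.Lib.P335.H8

open Finset
open Classical
open scoped symmDiff
open Vale.Agent.Lib.P335 Vale.Agent.Lib.P335.Gr

variable {n : ℕ} {d : Fin n → ℕ}

theorem mem_cross_iff {b b' : Finset (Fin n)} {a c : Fin n} :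
    s(a, c) ∈ cross b b' ↔ (a ∈ b ∧ c ∈ b') ∨ (a ∈ b' ∧ c ∈ b) := by
  unfold cross
  simp only [mem_image, mem_product, Prod.exists, Sym2.eq_iff]
  constructor
  · rintro ⟨p, q, ⟨hp, hq⟩, (⟨rfl, rfl⟩ | ⟨rfl, rfl⟩)⟩
    · exact Or.inl ⟨hp, hq⟩
    · exact Or.inr ⟨hq, hp⟩
  · rintro (⟨ha, hc⟩ | ⟨ha, hc⟩)
    · exact ⟨a, c, ⟨ha, hc⟩, Or.inl ⟨rfl, rfl⟩⟩
    · exact ⟨c, a, ⟨hc, ha⟩, Or.inr ⟨rfl, rfl⟩⟩

/-- For disjoint vertex sets the cross slots are exactly the shared slots. -/
theorem cross_eq_crossS {b b' : Finset (Fin n)} (hd : Disjoint b b') :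
    cross b b' = crossS b b' := by
  ext e
  induction e using Sym2.ind with
  | _ a c => rw [mem_cross_iff, mem_crossS_of_disjoint hd]

/-- Being alternating depends only on the cross slots. -/
theorem isAlt_congr {b b' : Finset (Fin n)} {E E' : Finset (Sym2 (Fin n))}
    (h : ∀ e, e ∈ cross b b' → (e ∈ E ↔ e ∈ E')) : IsAlt b b' E ↔ IsAlt b b' E' := by
  unfold IsAlt
  have h1 : ∀ v ∈ b, b'.filter (fun z => s(v, z) ∈ E) = b'.filter (fun z => s(v, z) ∈ E') := by
    intro v hv
    exact filter_congr fun z hz => h _ (mem_cross_of_mem hv hz)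
  have h2 : ∀ z ∈ b', b.filter (fun v => s(v, z) ∈ E) = b.filter (fun v => s(v, z) ∈ E') := by
    intro z hz
    exact filter_congr fun v hv => h _ (mem_cross_of_mem hv hz)
  constructor
  · rintro ⟨ha, hb⟩
    exact ⟨fun v hv => by rw [← h1 v hv]; exact ha v hv,
      fun z hz => by rw [← h2 z hz]; exact hb z hz⟩
  · rintro ⟨ha, hb⟩
    exact ⟨fun v hv => by rw [h1 v hv]; exact ha v hv,
      fun z hz => by rw [h2 z hz]; exact hb z hz⟩

/-- The flip does not change the slots outside the cross slots. -/
theorem flip_mem_of_not_cross (b b' : Finset (Fin n)) (G : Omega d) {e : Sym2 (Fin n)}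
    (he : e ∉ cross b b') : e ∈ (flip b b' G).1 ↔ e ∈ G.1 := by
  by_cases h : b.card = 2 ∧ b'.card = 2 ∧ Disjoint b b'
  · rw [flip_val h.1 h.2.1 h.2.2]
    unfold flipSet
    split_ifs with hA
    · rw [mem_symmDiff]
      tauto
    · exact Iff.rfl
  · unfold Gr.flip
    rw [dif_neg h]

/-- On an alternating graph the flip complements the cross slots. -/
theorem flip_mem_of_cross {b b' : Finset (Fin n)} (hb : b.card = 2) (hb' : b'.card = 2)
    (hd : Disjoint b b') (G : Omega d) (hA : IsAlt b b' G.1) {e : Sym2 (Fin n)}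
    (he : e ∈ cross b b') : e ∈ (flip b b' G).1 ↔ e ∉ G.1 := by
  rw [flip_val hb hb' hd]
  unfold flipSet
  rw [if_pos hA, mem_symmDiff]
  tauto

/-- A graph and its flip agree outside the shared slots. -/
theorem agreeS_crossS_flip (b b' : Finset (Fin n)) (G : Omega d) :
    AgreeS (crossS b b') G (flip b b' G) := by
  by_cases h : b.card = 2 ∧ b'.card = 2 ∧ Disjoint b b'
  · intro e he
    rw [← cross_eq_crossS h.2.2] at he
    exact (flip_mem_of_not_cross b b' G he).symm
  · unfold Gr.flip
    rw [dif_neg h]
    exact (agreeS_equiv _).refl G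

/-- The flip respects agreement outside the private slots of `b`. -/
theorem agreeS_ownS_flip (b b' : Finset (Fin n)) {G G' : Omega d}
    (h : AgreeS (ownS b b') G G') : AgreeS (ownS b b') (flip b b' G) (flip b b' G') := by
  by_cases hc : b.card = 2 ∧ b'.card = 2 ∧ Disjoint b b'
  · obtain ⟨hb, hb', hd⟩ := hc
    have hcr : ∀ e, e ∈ cross b b' → (e ∈ G.1 ↔ e ∈ G'.1) := by
      intro e he
      apply h
      rw [cross_eq_crossS hd] at he
      exact fun h' => Finset.disjoint_left.1 (disjoint_ownS_crossS b b') h' he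
    have hA := isAlt_congr hcr
    intro e he
    by_cases hec : e ∈ cross b b'
    · by_cases hG : IsAlt b b' G.1
      · rw [flip_mem_of_cross hb hb' hd G hG hec, flip_mem_of_cross hb hb' hd G' (hA.1 hG) hec,
          hcr e hec]
      · rw [flip_of_not hG, flip_of_not (fun h' => hG (hA.2 h'))]
        exact h e he
    · rw [flip_mem_of_not_cross b b' G hec, flip_mem_of_not_cross b b' G' hec]
      exact h e he
  · unfold Gr.flip
    rw [dif_neg hc, dif_neg hc]
    exact h

/-- The flip respects agreement outside the private slots of `b'`. -/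
theorem agreeS_ownS_flip' (b b' : Finset (Fin n)) {G G' : Omega d}
    (h : AgreeS (ownS b' b) G G') : AgreeS (ownS b' b) (flip b b' G) (flip b b' G') := by
  rw [flip_comm b b' G, flip_comm b b' G']
  exact agreeS_ownS_flip b' b h

/-! ### The number of cross edges is constant on the classes of `b` -/

/-- The number of edges at `z` inside a slot set is the same for two realizations that agree
outside the slot set. -/
theorem card_slot_edges_eq {Sg : Finset (Sym2 (Fin n))} {G G' : Omega d} (h : AgreeS Sg G G')
    (z : Fin n) :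
    (G.1.filter (fun e => e ∈ Sg ∧ z ∈ e)).card = (G'.1.filter (fun e => e ∈ Sg ∧ z ∈ e)).card := by
  have e1 := deg_split G.1 Sg z
  have e2 := deg_split G'.1 Sg z
  rw [G.2.2 z] at e1
  rw [G'.2.2 z] at e2
  have hB : (G.1.filter (fun e => e ∉ Sg ∧ z ∈ e)) = (G'.1.filter (fun e => e ∉ Sg ∧ z ∈ e)) := by
    ext e
    simp only [mem_filter]
    constructor
    · rintro ⟨he, hs, hz⟩
      exact ⟨(h e hs).1 he, hs, hz⟩
    · rintro ⟨he, hs, hz⟩
      exact ⟨(h e hs).2 he, hs, hz⟩
  rw [hB] at e1
  omega

/-- The cross edges, counted along the vertices of `b'`. -/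
theorem card_inter_cross {b b' : Finset (Fin n)} (hd : Disjoint b b')
    (E : Finset (Sym2 (Fin n))) :
    (E ∩ cross b b').card = ∑ z ∈ b', (E.filter (fun e => e ∈ slotsAt b ∧ z ∈ e)).card := by
  have hnot : ∀ z, z ∈ b' → z ∉ b := fun z hz hz' => Finset.disjoint_left.1 hd hz' hz
  have hU : E ∩ cross b b' = b'.biUnion (fun z => E.filter (fun e => e ∈ slotsAt b ∧ z ∈ e)) := by
    ext e
    induction e using Sym2.ind with
    | _ a c =>
      simp only [mem_inter, mem_biUnion, mem_filter, mem_cross_iff, mem_slotsAt, Sym2.mem_iff]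
      constructor
      · rintro ⟨hE, (⟨ha, hc⟩ | ⟨ha, hc⟩)⟩
        · exact ⟨c, hc, hE, Or.inl ha, Or.inr rfl⟩
        · exact ⟨a, ha, hE, Or.inr hc, Or.inl rfl⟩
      · rintro ⟨z, hz, hE, hs, (rfl | rfl)⟩
        · refine ⟨hE, Or.inr ⟨hz, ?_⟩⟩
          rcases hs with hs | hs
          · exact absurd hs (hnot _ hz)
          · exact hs
        · refine ⟨hE, Or.inl ⟨?_, hz⟩⟩
          rcases hs with hs | hs
          · exact hs
          · exact absurd hs (hnot _ hz)
  rw [hU, card_biUnion]
  intro z hz z' hz' hzz'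
  rw [Function.onFun, Finset.disjoint_left]
  intro e h1 h2
  simp only [mem_filter] at h1 h2
  have he : e = s(z, z') := (Sym2.mem_and_mem_iff hzz').1 ⟨h1.2.2, h2.2.2⟩
  have hs := h1.2.1
  rw [he, mem_slotsAt] at hs
  rcases hs with hs | hs
  · exact hnot _ hz hs
  · exact hnot _ hz' hs

/-- **Cross count**: the number of cross edges is constant on the classes of `b`. -/
theorem card_cross_eq {b b' : Finset (Fin n)} (hd : Disjoint b b') {G G' : Omega d}
    (h : GAgree b G.1 G'.1) : (G.1 ∩ cross b b').card = (G'.1 ∩ cross b b').card := by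
  rw [card_inter_cross hd, card_inter_cross hd]
  exact Finset.sum_congr rfl fun z _ => card_slot_edges_eq ((gagree_iff_agreeS b G G').1 h) z

/-- The number of cross edges is constant on the classes of `b'` as well. -/
theorem card_cross_eq' {b b' : Finset (Fin n)} (hd : Disjoint b b') {G G' : Omega d}
    (h : GAgree b' G.1 G'.1) : (G.1 ∩ cross b b').card = (G'.1 ∩ cross b b').card := by
  rw [cross_comm b b']
  exact card_cross_eq hd.symm h

/-! ### Two alternating graphs in one class -/

/-- Agreement off `b` together with agreement on the cross slots is agreement outside the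
private slots of `b`. -/
theorem agreeS_ownS_of {b b' : Finset (Fin n)} (hd : Disjoint b b') {G G' : Omega d}
    (h : GAgree b G.1 G'.1) (hcr : ∀ e, e ∈ cross b b' → (e ∈ G.1 ↔ e ∈ G'.1)) :
    AgreeS (ownS b b') G G' := by
  intro e he
  by_cases hec : e ∈ cross b b'
  · exact hcr e hec
  · apply (gagree_iff_agreeS b G G').1 h
    intro hs
    rw [slotsAt_eq_union b b', mem_union] at hs
    rcases hs with hs | hs
    · exact he hs
    · exact hec (by rw [cross_eq_crossS hd]; exact hs)

/-- Two alternating edge sets agree on all cross slots or disagree on all cross slots. -/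
theorem alt_same_or_compl {b b' : Finset (Fin n)} (hb : b.card = 2) (hb' : b'.card = 2)
    {E E' : Finset (Sym2 (Fin n))} (hE : IsAlt b b' E) (hE' : IsAlt b b' E') :
    (∀ e, e ∈ cross b b' → (e ∈ E ↔ e ∈ E')) ∨ (∀ e, e ∈ cross b b' → (e ∈ E ↔ e ∉ E')) := by
  obtain ⟨u, w, huw, rfl⟩ := Finset.card_eq_two.1 hb
  obtain ⟨x, y, hxy, rfl⟩ := Finset.card_eq_two.1 hb'
  rw [isAlt_pair huw hxy] at hE hE'
  rw [cross_pair]
  simp only [mem_insert, mem_singleton, forall_eq_or_imp, forall_eq]
  unfold Alt4 at hE hE'
  tauto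

/-- **Alternating graphs in one class of `b`** agree outside the private slots of `b`, after
possibly flipping one of them. -/
theorem agreeS_ownS_of_isAlt {b b' : Finset (Fin n)} (hb : b.card = 2) (hb' : b'.card = 2)
    (hd : Disjoint b b') {G G' : Omega d} (hG : IsAlt b b' G.1) (hG' : IsAlt b b' G'.1)
    (h : GAgree b G.1 G'.1) :
    AgreeS (ownS b b') G G' ∨ AgreeS (ownS b b') G (flip b b' G') := by
  rcases alt_same_or_compl hb hb' hG hG' with hs | hs
  · exact Or.inl (agreeS_ownS_of hd h hs)
  · refine Or.inr (agreeS_ownS_of hd (GAgree.trans h (gagree_flip_left b b' G')) ?_)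
    intro e he
    rw [flip_mem_of_cross hb hb' hd G' hG' he]
    exact hs e he

/-- The same for the classes of `b'` and the private slots of `b'`. -/
theorem agreeS_ownS_of_isAlt' {b b' : Finset (Fin n)} (hb : b.card = 2) (hb' : b'.card = 2)
    (hd : Disjoint b b') {G G' : Omega d} (hG : IsAlt b b' G.1) (hG' : IsAlt b b' G'.1)
    (h : GAgree b' G.1 G'.1) :
    AgreeS (ownS b' b) G G' ∨ AgreeS (ownS b' b) G (flip b b' G') := by
  rw [flip_comm b b' G']
  exact agreeS_ownS_of_isAlt hb' hb hd.symm ((isAlt_comm b b' G.1).1 hG)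
    ((isAlt_comm b b' G'.1).1 hG') h

/-! ### The average over the cross slots -/

/-- The average over the shared slots is the mean over the graph and its flip, given that a
realization is determined up to the flip by its slots outside the cross slots. -/
theorem avgS_crossS_apply_of (b b' : Finset (Fin n))
    (hrig : ∀ G G' : Omega d, AgreeS (crossS b b') G G' → G' = G ∨ G' = flip b b' G)
    (f : Omega d → ℝ) (G : Omega d) :
    avgS (crossS b b') f G = (f G + f (flip b b' G)) / 2 := by
  have hcls : ecls (AgreeS (d := d) (crossS b b')) G = {G, flip b b' G} := by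
    ext G'
    rw [mem_ecls, mem_insert, mem_singleton]
    constructor
    · exact hrig G G'
    · rintro (rfl | rfl)
      · exact (agreeS_equiv _).refl _
      · exact agreeS_crossS_flip b b' _
  unfold avgS eavg
  rw [hcls]
  by_cases hF : flip b b' G = G
  · rw [hF]
    simp
  · rw [Finset.sum_pair (fun h => hF h.symm), Finset.card_pair (fun h => hF h.symm)]
    norm_num

end Vale.Agent.Lib.P335.H8

namespace Vale.Agent.Lib.P335.H8

open Finset
open Classical
open Vale.Agent.Lib.P335 Vale.Agent.Lib.P335.Gr

variable {n : ℕ} {d : Fin n → ℕ}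

/-- Graphs that agree outside the private slots of `b` are alternating together. -/
theorem isAlt_iff_of_agreeS_ownS {b b' : Finset (Fin n)} (hd : Disjoint b b') {G G' : Omega d}
    (h : AgreeS (ownS b b') G G') : IsAlt b b' G.1 ↔ IsAlt b b' G'.1 := by
  apply isAlt_congr
  intro e he
  apply h
  rw [cross_eq_crossS hd] at he
  exact fun h' => Finset.disjoint_left.1 (disjoint_ownS_crossS b b') h' he

/-- Graphs that agree outside the private slots of `b'` are alternating together. -/
theorem isAlt_iff_of_agreeS_ownS' {b b' : Finset (Fin n)} (hd : Disjoint b b') {G G' : Omega d}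
    (h : AgreeS (ownS b' b) G G') : IsAlt b b' G.1 ↔ IsAlt b b' G'.1 := by
  rw [isAlt_comm b b' G.1, isAlt_comm b b' G'.1]
  exact isAlt_iff_of_agreeS_ownS hd.symm h

/-- Rigidity of the cross slots: a realization that agrees with `G` outside the shared slots
of two disjoint pairs is `G` or its flip. -/
theorem eq_or_eq_flip_of_agreeS {b b' : Finset (Fin n)} (hb : b.card = 2) (hb' : b'.card = 2)
    (hd : Disjoint b b') {G G' : Omega d} (h : AgreeS (crossS b b') G G') :
    G' = G ∨ G' = flip b b' G :=
  eq_or_eq_flip hb hb' hd G G' (fun e he => h e (by rw [← cross_eq_crossS hd]; exact he))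

/-- **The average over the cross slots** of two disjoint pairs is the mean over the graph and
its flip. -/
theorem avgS_crossS_apply {b b' : Finset (Fin n)} (hb : b.card = 2) (hb' : b'.card = 2)
    (hd : Disjoint b b') (f : Omega d → ℝ) (G : Omega d) :
    avgS (crossS b b') f G = (f G + f (flip b b' G)) / 2 :=
  avgS_crossS_apply_of b b' (fun _ _ h => eq_or_eq_flip_of_agreeS hb hb' hd h) f G

/-- Agreement outside the cross slots is agreement off `b` and off `b'`. -/
theorem gagree_of_agreeS_crossS {b b' : Finset (Fin n)} {G G' : Omega d} :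
    AgreeS (crossS b b') G G' → GAgree b G.1 G'.1 ∧ GAgree b' G.1 G'.1 := fun h =>
  ⟨(gagree_iff_agreeS b G G').2 (agreeS_mono (crossS_subset_left b b') h),
    (gagree_iff_agreeS b' G G').2 (agreeS_mono (crossS_subset_right b b') h)⟩

/-- Agreement off `b` and off `b'` is agreement outside the cross slots. -/
theorem agreeS_crossS_of_gagree {b b' : Finset (Fin n)} {G G' : Omega d}
    (h1 : GAgree b G.1 G'.1) (h2 : GAgree b' G.1 G'.1) : AgreeS (crossS b b') G G' := by
  intro e he
  by_cases h : e ∈ slotsAt b
  · apply (gagree_iff_agreeS b' G G').1 h2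
    intro h'
    exact he (Finset.mem_inter.2 ⟨h, h'⟩)
  · exact (gagree_iff_agreeS b G G').1 h1 e h

/-- Uniqueness when the flip is trivial: two realizations in the same class of `b` and the
same class of `b'` are equal or flips of each other. -/
theorem eq_or_eq_flip_of_gagree {b b' : Finset (Fin n)} (hb : b.card = 2) (hb' : b'.card = 2)
    (hd : Disjoint b b') {G G' : Omega d} (h1 : GAgree b G.1 G'.1) (h2 : GAgree b' G.1 G'.1) :
    G' = G ∨ G' = flip b b' G :=
  eq_or_eq_flip_of_agreeS hb hb' hd (agreeS_crossS_of_gagree h1 h2)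

end Vale.Agent.Lib.P335.H8

namespace Vale.Agent.Lib.P335.H8

open Finset
open Classical
open Vale.Agent.Lib.P335 Vale.Agent.Lib.P335.Gr

variable {n : ℕ} {d : Fin n → ℕ}

/-- Alias of `isAlt_iff_of_agreeS_ownS`: the alternating graphs form a union of classes of the
private slots of `b`. -/
theorem isAlt_of_agreeS_ownS {b c : Finset (Fin n)} (hd : Disjoint b c) {G G2 : Omega d}
    (h : AgreeS (ownS b c) G G2) : IsAlt b c G.1 ↔ IsAlt b c G2.1 :=
  isAlt_iff_of_agreeS_ownS hd h

/-- Alias of `isAlt_iff_of_agreeS_ownS'` for the private slots of `c`. -/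
theorem isAlt_of_agreeS_ownS' {b c : Finset (Fin n)} (hd : Disjoint b c) {G G2 : Omega d}
    (h : AgreeS (ownS c b) G G2) : IsAlt b c G.1 ↔ IsAlt b c G2.1 :=
  isAlt_iff_of_agreeS_ownS' hd h

/-- The flip of an alternating graph leaves its class of the private slots of `b`. -/
theorem not_agreeS_ownS_flip {b c : Finset (Fin n)} (hb : b.card = 2) (hc : c.card = 2)
    (hd : Disjoint b c) {G : Omega d} (hG : IsAlt b c G.1) :
    ¬ AgreeS (ownS b c) G (flip b c G) := by
  intro h
  obtain ⟨u, hu⟩ := Finset.card_pos.1 (by omega : 0 < b.card)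
  obtain ⟨x, hx⟩ := Finset.card_pos.1 (by omega : 0 < c.card)
  have he : s(u, x) ∈ cross b c := mem_cross_of_mem hu hx
  have hno : s(u, x) ∉ ownS b c := by
    intro h'
    rw [cross_eq_crossS hd] at he
    exact Finset.disjoint_left.1 (disjoint_ownS_crossS b c) h' he
  have h1 := h _ hno
  rw [flip_mem_of_cross hb hc hd G hG he] at h1
  tauto

/-- The flip of an alternating graph leaves its class of the private slots of `c`. -/
theorem not_agreeS_ownS_flip' {b c : Finset (Fin n)} (hb : b.card = 2) (hc : c.card = 2)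
    (hd : Disjoint b c) {G : Omega d} (hG : IsAlt b c G.1) :
    ¬ AgreeS (ownS c b) G (flip b c G) := by
  rw [flip_comm b c G]
  exact not_agreeS_ownS_flip hc hb hd.symm ((isAlt_comm b c G.1).1 hG)

/-- Odd cross count: the flip is trivial. -/
theorem flip_eq_self_of_odd {b c : Finset (Fin n)} (hb : b.card = 2) (hc : c.card = 2)
    (hd : Disjoint b c) {G : Omega d} (hodd : Odd (G.1 ∩ cross b c).card) : flip b c G = G := by
  by_contra hne
  have hA : IsAlt b c G.1 := (flip_ne_self_iff hb hc hd G).1 hne
  obtain ⟨u, w, huw, rfl⟩ := Finset.card_eq_two.1 hb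
  obtain ⟨x, y, hxy, rfl⟩ := Finset.card_eq_two.1 hc
  obtain ⟨hux, huy, hwx, hwy⟩ := pair_distinct hd
  rw [isAlt_pair huw hxy] at hA
  have hcard : (G.1 ∩ cross {u, w} {x, y}).card = 2 := by
    rw [cross_pair]
    have e1 : s(u, x) ≠ s(w, y) := by
      intro h
      rcases Sym2.eq_iff.1 h with ⟨h1, _⟩ | ⟨h1, _⟩
      · exact huw h1
      · exact huy h1
    have e2 : s(u, y) ≠ s(w, x) := by
      intro h
      rcases Sym2.eq_iff.1 h with ⟨h1, _⟩ | ⟨h1, _⟩
      · exact huw h1
      · exact hux h1
    rcases hA with ⟨h1, h2, h3, h4⟩ | ⟨h1, h2, h3, h4⟩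
    · have : G.1 ∩ {s(u, x), s(u, y), s(w, x), s(w, y)} = {s(u, x), s(w, y)} := by
        ext e
        simp only [mem_inter, mem_insert, mem_singleton]
        constructor
        · rintro ⟨he, (rfl | rfl | rfl | rfl)⟩
          · exact Or.inl rfl
          · exact absurd he h3
          · exact absurd he h4
          · exact Or.inr rfl
        · rintro (rfl | rfl)
          · exact ⟨h1, Or.inl rfl⟩
          · exact ⟨h2, Or.inr (Or.inr (Or.inr rfl))⟩
      rw [this, Finset.card_pair e1]
    · have : G.1 ∩ {s(u, x), s(u, y), s(w, x), s(w, y)} = {s(u, y), s(w, x)} := by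
        ext e
        simp only [mem_inter, mem_insert, mem_singleton]
        constructor
        · rintro ⟨he, (rfl | rfl | rfl | rfl)⟩
          · exact absurd he h3
          · exact Or.inl rfl
          · exact Or.inr rfl
          · exact absurd he h4
        · rintro (rfl | rfl)
          · exact ⟨h1, Or.inr (Or.inl rfl)⟩
          · exact ⟨h2, Or.inr (Or.inr (Or.inl rfl))⟩
      rw [this, Finset.card_pair e2]
  rw [hcard] at hodd
  exact absurd hodd (by decide)

/-- Uniqueness on the odd part: a graph with an odd cross count is the only graph in the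
intersection of its class of `b` and its class of `c`. -/
theorem eq_of_odd_of_gagree {b c : Finset (Fin n)} (hb : b.card = 2) (hc : c.card = 2)
    (hd : Disjoint b c) {G G2 : Omega d} (hodd : Odd (G.1 ∩ cross b c).card)
    (h1 : GAgree b G.1 G2.1) (h2 : GAgree c G.1 G2.1) : G = G2 := by
  rcases eq_or_eq_flip_of_gagree hb hc hd h1 h2 with h | h
  · exact h.symm
  · rw [flip_eq_self_of_odd hb hc hd hodd] at h
    exact h.symm

end Vale.Agent.Lib.P335.H8
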