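import Vale.Agent.Lib.P335.Bip.Defs

/-!
# Averaging operators of the table model: basics and commutation

`avg W` is the conditional expectation given all rows outside `W`.  It is linear, idempotent,
symmetric for the counting inner product `ip`, and its range consists of the functions that
depend only on the rows outside `W`.  For nested row sets the tower property holds, and for
disjoint row sets the two averaging operators commute.
-/

set_option linter.unusedSectionVars false

namespace Vale.Agent.Lib.P335.H8

open Finset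
open Classical
open Vale.Agent.Lib.P335.Bip

variable {R C : Type} [Fintype R] [DecidableEq R] [Fintype C] [DecidableEq C]
variable {r : R → ℕ} {c : C → ℕ}

/-! ### The relation `AgreeOff` -/

theorem agreeOff_refl (W : Finset R) (x : R → Finset C) : AgreeOff W x x := fun _ _ => rfl

theorem agreeOff_symm {W : Finset R} {x y : R → Finset C} (h : AgreeOff W x y) :
    AgreeOff W y x := fun i hi => (h i hi).symm

theorem agreeOff_trans {W : Finset R} {x y z : R → Finset C} (h1 : AgreeOff W x y)
    (h2 : AgreeOff W y z) : AgreeOff W x z := fun i hi => (h1 i hi).trans (h2 i hi)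

theorem agreeOff_mono {W W' : Finset R} (h : W ⊆ W') {x y : R → Finset C}
    (hxy : AgreeOff W x y) : AgreeOff W' x y := fun i hi => hxy i (fun hiW => hi (h hiW))

/-! ### Classes -/

theorem mem_cls {W : Finset R} {x y : Tab r c} : y ∈ cls W x ↔ AgreeOff W x.1 y.1 := by
  simp [cls]

theorem self_mem_cls (W : Finset R) (x : Tab r c) : x ∈ cls W x :=
  mem_cls.2 (agreeOff_refl W x.1)

theorem cls_eq_of_mem {W : Finset R} {x y : Tab r c} (h : y ∈ cls W x) : cls W y = cls W x := by
  ext z
  rw [mem_cls, mem_cls]
  have hxy := mem_cls.1 h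
  exact ⟨fun hz => agreeOff_trans hxy hz, fun hz => agreeOff_trans (agreeOff_symm hxy) hz⟩

theorem card_cls_pos (W : Finset R) (x : Tab r c) : 0 < ((cls W x).card : ℝ) := by
  exact_mod_cast Finset.card_pos.2 ⟨x, self_mem_cls W x⟩

theorem sum_cls (W : Finset R) (x : Tab r c) (F : Tab r c → ℝ) :
    ∑ y ∈ cls W x, F y = ∑ y : Tab r c, if AgreeOff W x.1 y.1 then F y else 0 := by
  unfold cls; rw [Finset.sum_filter]

/-! ### Invariant functions and basic properties of `avg` -/

/-- `g` depends only on the rows outside `W`. -/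
def Inv (W : Finset R) (g : Tab r c → ℝ) : Prop :=
  ∀ x y : Tab r c, AgreeOff W x.1 y.1 → g x = g y

theorem inv_mono {W W' : Finset R} (h : W ⊆ W') {g : Tab r c → ℝ} (hg : Inv W' g) : Inv W g :=
  fun x y hxy => hg x y (agreeOff_mono h hxy)

theorem avg_eq_of_mem {W : Finset R} (f : Tab r c → ℝ) {x y : Tab r c} (h : y ∈ cls W x) :
    avg W f y = avg W f x := by
  unfold avg
  rw [cls_eq_of_mem h]

theorem avg_inv (W : Finset R) (f : Tab r c → ℝ) : Inv W (avg W f) :=
  fun _ _ h => (avg_eq_of_mem f (mem_cls.2 h)).symm

theorem avg_of_inv {W : Finset R} {g : Tab r c → ℝ} (hg : Inv W g) : avg W g = g := by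
  funext x
  unfold avg
  have h1 : ∑ y ∈ cls W x, g y = ∑ _y ∈ cls W x, g x :=
    Finset.sum_congr rfl fun y hy => (hg x y (mem_cls.1 hy)).symm
  rw [h1, Finset.sum_const, nsmul_eq_mul]
  have hpos := card_cls_pos W x
  field_simp

theorem avg_idem (W : Finset R) (f : Tab r c → ℝ) : avg W (avg W f) = avg W f :=
  avg_of_inv (avg_inv W f)

theorem avg_add (W : Finset R) (f g : Tab r c → ℝ) : avg W (f + g) = avg W f + avg W g := by
  funext x
  simp [avg, Finset.sum_add_distrib, add_div]

theorem avg_smul (W : Finset R) (a : ℝ) (f : Tab r c → ℝ) : avg W (a • f) = a • avg W f := by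
  funext x
  simp [avg, ← Finset.mul_sum, mul_div_assoc]

theorem avg_sub (W : Finset R) (f g : Tab r c → ℝ) : avg W (f - g) = avg W f - avg W g := by
  funext x
  simp [avg, Finset.sum_sub_distrib, sub_div]

theorem avg_const (W : Finset R) (a : ℝ) : avg W (fun _ : Tab r c => a) = fun _ => a :=
  avg_of_inv (fun _ _ _ => rfl)

/-- `avg W` is symmetric for the counting inner product. -/
theorem avg_symm (W : Finset R) (f g : Tab r c → ℝ) : ip (avg W f) g = ip f (avg W g) := by
  have hL : ip (avg W f) g = ∑ x : Tab r c, ∑ y : Tab r c,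
      if AgreeOff W x.1 y.1 then f y * g x / ((cls W x).card : ℝ) else 0 := by
    unfold ip avg
    refine Finset.sum_congr rfl fun x _ => ?_
    rw [sum_cls, Finset.sum_div, Finset.sum_mul]
    refine Finset.sum_congr rfl fun y _ => ?_
    split_ifs <;> ring
  have hR : ip f (avg W g) = ∑ y : Tab r c, ∑ x : Tab r c,
      if AgreeOff W y.1 x.1 then f y * g x / ((cls W y).card : ℝ) else 0 := by
    unfold ip avg
    refine Finset.sum_congr rfl fun y _ => ?_
    rw [sum_cls, Finset.sum_div, Finset.mul_sum]
    refine Finset.sum_congr rfl fun x _ => ?_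
    split_ifs <;> ring
  rw [hL, hR, Finset.sum_comm]
  refine Finset.sum_congr rfl fun y _ => Finset.sum_congr rfl fun x _ => ?_
  by_cases h : AgreeOff W y.1 x.1
  · have h' : AgreeOff W x.1 y.1 := agreeOff_symm h
    rw [if_pos h, if_pos h', cls_eq_of_mem (mem_cls.2 h)]
  · have h' : ¬ AgreeOff W x.1 y.1 := fun h'' => h (agreeOff_symm h'')
    rw [if_neg h, if_neg h']

/-- Two functions with the same inner products against all test functions are equal. -/
theorem eq_of_ip_eq {α : Type} [Fintype α] {g h : α → ℝ}
    (H : ∀ k : α → ℝ, ip k g = ip k h) : g = h := by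
  have h1 := H (g - h)
  have h0 : ∑ x, (g x - h x) ^ 2 = 0 := by
    have h2 : ip (g - h) g - ip (g - h) h = 0 := by rw [h1]; ring
    unfold ip at h2
    rw [← Finset.sum_sub_distrib] at h2
    rw [← h2]
    refine Finset.sum_congr rfl fun x _ => ?_
    simp only [Pi.sub_apply]; ring
  funext x
  have h3 := (Finset.sum_eq_zero_iff_of_nonneg (fun x _ => sq_nonneg (g x - h x))).1 h0 x
    (Finset.mem_univ x)
  have h4 : g x - h x = 0 := by
    rcases pow_eq_zero_iff (n := 2) (by norm_num) |>.1 h3 with h5
    exact h5
  linarith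

/-- Tower property: for `W ⊆ W'`, averaging over the larger classes absorbs the smaller one. -/
theorem avg_avg_of_subset {W W' : Finset R} (h : W ⊆ W') (f : Tab r c → ℝ) :
    avg W (avg W' f) = avg W' f :=
  avg_of_inv (inv_mono h (avg_inv W' f))

theorem avg_avg_of_subset' {W W' : Finset R} (h : W ⊆ W') (f : Tab r c → ℝ) :
    avg W' (avg W f) = avg W' f := by
  refine eq_of_ip_eq fun k => ?_
  rw [← avg_symm, ← avg_symm, avg_avg_of_subset h, ← avg_symm]

/-! ### Swapping in the rows of `W` -/

/-- The rows of `w` inside `W`, the rows of `v` outside. -/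
def mixFun (W : Finset R) (w v : R → Finset C) : R → Finset C :=
  fun i => if i ∈ W then w i else v i

theorem mix_isTable {W W' : Finset R} (hd : Disjoint W W') {u v w : R → Finset C}
    (hu : IsTable r c u) (hv : IsTable r c v) (hw : IsTable r c w)
    (huv : AgreeOff W' u v) (huw : AgreeOff W u w) : IsTable r c (mixFun W w v) := by
  refine ⟨fun i => ?_, fun j => ?_⟩
  · unfold mixFun
    split_ifs with h
    · exact hw.1 i
    · exact hv.1 i
  · have key : ∀ x : R → Finset C, (univ.filter (fun i => j ∈ x i)).card
        = (∑ i : R, if i ∈ W then (if j ∈ x i then 1 else 0) else 0)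
          + ∑ i : R, if i ∈ W then 0 else (if j ∈ x i then 1 else 0) := by
      intro x
      rw [Finset.card_filter, ← Finset.sum_add_distrib]
      refine Finset.sum_congr rfl fun i _ => ?_
      by_cases h : i ∈ W <;> simp [h]
    have hA : (∑ i : R, if i ∈ W then (if j ∈ u i then 1 else 0) else 0)
        = ∑ i : R, if i ∈ W then (if j ∈ v i then 1 else 0) else 0 := by
      refine Finset.sum_congr rfl fun i _ => ?_
      by_cases h : i ∈ W
      · have e : u i = v i := huv i (Finset.disjoint_left.1 hd h)
        simp [h, e]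
      · simp [h]
    have hB : (∑ i : R, if i ∈ W then 0 else (if j ∈ w i then 1 else 0))
        = ∑ i : R, if i ∈ W then 0 else (if j ∈ u i then 1 else 0) := by
      refine Finset.sum_congr rfl fun i _ => ?_
      by_cases h : i ∈ W
      · simp [h]
      · have e : u i = w i := huw i h
        simp [h, e]
    have hmix : (univ.filter (fun i => j ∈ mixFun W w v i)).card
        = (∑ i : R, if i ∈ W then (if j ∈ w i then 1 else 0) else 0)
          + ∑ i : R, if i ∈ W then 0 else (if j ∈ v i then 1 else 0) := by
      rw [key]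
      congr 1 <;> refine Finset.sum_congr rfl fun i _ => ?_ <;> by_cases h : i ∈ W <;>
        simp [mixFun, h]
    have e1 := key u
    have e2 := key v
    have e3 := key w
    rw [hu.2 j] at e1
    rw [hv.2 j] at e2
    rw [hw.2 j] at e3
    rw [hmix]
    omega

/-- For `u`, `v` agreeing outside `W'` and `W` disjoint from `W'`: the table with the `W`-rows of
`w ∈ cls W u` and the other rows of `v`. -/
noncomputable def mixTab {W W' : Finset R} (hd : Disjoint W W') {u v : Tab r c}
    (huv : AgreeOff W' u.1 v.1) (w : Tab r c) (hw : w ∈ cls W u) : Tab r c :=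
  ⟨mixFun W w.1 v.1, mix_isTable hd u.2 v.2 w.2 huv (mem_cls.1 hw)⟩

theorem sum_cls_transfer {W W' : Finset R} (hd : Disjoint W W') {u v : Tab r c}
    (huv : AgreeOff W' u.1 v.1) {g : Tab r c → ℝ} (hg : Inv W' g) :
    ∑ w ∈ cls W u, g w = ∑ w ∈ cls W v, g w := by
  refine Finset.sum_bij' (fun w hw => mixTab hd huv w hw)
    (fun w hw => mixTab hd (agreeOff_symm huv) w hw) ?_ ?_ ?_ ?_ ?_
  · intro w hw
    refine mem_cls.2 fun i hi => ?_
    simp [mixTab, mixFun, hi]
  · intro w hw
    refine mem_cls.2 fun i hi => ?_
    simp [mixTab, mixFun, hi]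
  · intro w hw
    apply Subtype.ext
    funext i
    by_cases hi : i ∈ W
    · simp [mixTab, mixFun, hi]
    · have e : u.1 i = w.1 i := mem_cls.1 hw i hi
      simp [mixTab, mixFun, hi, e]
  · intro w hw
    apply Subtype.ext
    funext i
    by_cases hi : i ∈ W
    · simp [mixTab, mixFun, hi]
    · have e : v.1 i = w.1 i := mem_cls.1 hw i hi
      simp [mixTab, mixFun, hi, e]
  · intro w hw
    refine hg w _ fun i hi' => ?_
    by_cases hi : i ∈ W
    · simp [mixTab, mixFun, hi]
    · have e : u.1 i = w.1 i := mem_cls.1 hw i hi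
      have e' : u.1 i = v.1 i := huv i hi'
      simp [mixTab, mixFun, hi, ← e, e']

theorem card_cls_transfer {W W' : Finset R} (hd : Disjoint W W') {u v : Tab r c}
    (huv : AgreeOff W' u.1 v.1) : ((cls W u).card : ℝ) = ((cls W v).card : ℝ) := by
  have h := sum_cls_transfer (W := W) hd huv (g := fun _ : Tab r c => (1 : ℝ)) (fun _ _ _ => rfl)
  simpa using h

/-- Averaging over the rows of `W` preserves the functions that do not depend on the rows of a
disjoint set `W'`. -/
theorem avg_preserves_inv {W W' : Finset R} (hd : Disjoint W W') {g : Tab r c → ℝ}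
    (hg : Inv W' g) : Inv W' (avg W g) := by
  intro u v huv
  unfold avg
  rw [sum_cls_transfer hd huv hg, card_cls_transfer hd huv]

/-- **Commutation**: the averaging operators of two disjoint row sets commute. -/
theorem avg_comm {W W' : Finset R} (hd : Disjoint W W') (f : Tab r c → ℝ) :
    avg W (avg W' f) = avg W' (avg W f) := by
  have h1 : ∀ g : Tab r c → ℝ, avg W' (avg W (avg W' g)) = avg W (avg W' g) := fun g =>
    avg_of_inv (avg_preserves_inv hd (avg_inv W' g))
  refine eq_of_ip_eq fun k => ?_
  calc ip k (avg W (avg W' f)) = ip k (avg W' (avg W (avg W' f))) := by rw [h1]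
    _ = ip (avg W' (avg W (avg W' k))) f := by
        rw [← avg_symm, ← avg_symm, ← avg_symm]
    _ = ip (avg W (avg W' k)) f := by rw [h1]
    _ = ip k (avg W' (avg W f)) := by rw [avg_symm, avg_symm]

end Vale.Agent.Lib.P335.H8
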