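import Mathlib

/-!
# A spectral principle for symmetric operators on functions on a finite type

If every eigenvector of a symmetric matrix `A` with eigenvalue `> c` is a constant function, then
`⟨f, A f⟩ ≤ c ⟨f, f⟩` for every `f` with zero sum.  The second form derives the eigenvector
hypothesis from a pair of Lipschitz-type functionals that `A` expands by at most the factor `c`
(triangularly), as in a path-coupling argument.
-/

namespace Vale.Agent.Lib.P335.H8

open Finset Matrix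

variable {Ω : Type*} [Fintype Ω] [DecidableEq Ω]

/-- Matrix form: if all eigenvectors with eigenvalue above `c` are constant, the quadratic form of
`A` is at most `c` times the square norm on functions of zero sum. -/
theorem quad_le_of_eigen (A : Matrix Ω Ω ℝ) (hA : A.IsHermitian) (c : ℝ)
    (hev : ∀ (μ : ℝ) (g : Ω → ℝ), c < μ → A *ᵥ g = μ • g → ∃ a : ℝ, g = fun _ => a)
    (f : Ω → ℝ) (hf : ∑ x, f x = 0) :
    f ⬝ᵥ (A *ᵥ f) ≤ c * (f ⬝ᵥ f) := by
  classical
  set b := hA.eigenvectorBasis with hb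
  set ev := hA.eigenvalues with hev'
  -- coefficients
  set a : Ω → ℝ := fun i => (⇑(b i) : Ω → ℝ) ⬝ᵥ f with ha
  have hexp : f = ∑ i, a i • (⇑(b i) : Ω → ℝ) := by
    have h := b.sum_repr (WithLp.toLp 2 f)
    have h2 : (∑ i, b.repr (WithLp.toLp 2 f) i • b i : EuclideanSpace ℝ Ω) = WithLp.toLp 2 f := h
    have h3 := congrArg (fun v : EuclideanSpace ℝ Ω => (⇑v : Ω → ℝ)) h2
    simp only at h3
    funext x
    have h4 := congrFun h3 x
    simp only [WithLp.ofLp_sum, WithLp.ofLp_smul, Finset.sum_apply, Pi.smul_apply, smul_eq_mul,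
      OrthonormalBasis.repr_apply_apply] at h4
    rw [← h4]
    simp only [Finset.sum_apply, Pi.smul_apply, smul_eq_mul]
    refine Finset.sum_congr rfl fun i _ => ?_
    congr 1
    simp [ha, EuclideanSpace.inner_eq_star_dotProduct, dotProduct_comm]
  have hortho : ∀ i, f ⬝ᵥ (⇑(b i) : Ω → ℝ) = a i := fun i => by
    simp [ha, dotProduct_comm]
  have hAf : A *ᵥ f = ∑ i, (a i * ev i) • (⇑(b i) : Ω → ℝ) := by
    conv_lhs => rw [hexp]
    rw [Matrix.mulVec_sum]
    refine Finset.sum_congr rfl fun i _ => ?_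
    rw [Matrix.mulVec_smul, hA.mulVec_eigenvectorBasis i, smul_smul]
  have h1 : f ⬝ᵥ (A *ᵥ f) = ∑ i, ev i * a i ^ 2 := by
    rw [hAf, dotProduct_sum]
    refine Finset.sum_congr rfl fun i _ => ?_
    rw [dotProduct_smul, hortho i, smul_eq_mul]; ring
  have h2 : f ⬝ᵥ f = ∑ i, a i ^ 2 := by
    have e : f ⬝ᵥ f = f ⬝ᵥ (∑ i, a i • (⇑(b i) : Ω → ℝ)) := by rw [← hexp]
    rw [e, dotProduct_sum]
    refine Finset.sum_congr rfl fun i _ => ?_
    rw [dotProduct_smul, hortho i, smul_eq_mul]; ring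
  rw [h1, h2, Finset.mul_sum]
  refine Finset.sum_le_sum fun i _ => ?_
  by_cases hi : c < ev i
  · obtain ⟨t, ht⟩ := hev (ev i) (⇑(b i)) hi (hA.mulVec_eigenvectorBasis i)
    have hz : a i = 0 := by
      simp only [ha, ht, dotProduct]
      rw [← Finset.mul_sum, hf, mul_zero]
    rw [hz]; simp
  · have : ev i ≤ c := not_lt.mp hi
    exact mul_le_mul_of_nonneg_right this (sq_nonneg _)

/-- Operator form with two Lipschitz-type functionals: if `S` is symmetric for the counting inner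
product, expands `Ls` by at most `c` and `Lc` by at most `c` up to a multiple of `Ls`, and the only
functions on which both functionals vanish are the constants, then `⟨f, S f⟩ ≤ c ⟨f, f⟩` for all `f`
of zero sum. -/
theorem spec_principle (S : (Ω → ℝ) →ₗ[ℝ] (Ω → ℝ))
    (hsymm : ∀ f g : Ω → ℝ, ∑ x, f x * S g x = ∑ x, S f x * g x)
    (c K : ℝ) (hc : 0 ≤ c)
    (Ls Lc : (Ω → ℝ) → ℝ)
    (hLs0 : ∀ f, 0 ≤ Ls f) (hLc0 : ∀ f, 0 ≤ Lc f)
    (hLs_smul : ∀ (t : ℝ) f, Ls (t • f) = |t| * Ls f)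
    (hLc_smul : ∀ (t : ℝ) f, Lc (t • f) = |t| * Lc f)
    (hLs : ∀ f, Ls (S f) ≤ c * Ls f)
    (hLc : ∀ f, Lc (S f) ≤ c * Lc f + K * Ls f)
    (hconst : ∀ f, Ls f = 0 → Lc f = 0 → ∃ a : ℝ, f = fun _ => a)
    (f : Ω → ℝ) (hf : ∑ x, f x = 0) :
    ∑ x, f x * S f x ≤ c * ∑ x, f x ^ 2 := by
  classical
  set A : Matrix Ω Ω ℝ := LinearMap.toMatrix' S with hA_def
  have hSA : ∀ g : Ω → ℝ, S g = A *ᵥ g := fun g => by
    rw [hA_def, ← Matrix.toLin'_apply, Matrix.toLin'_toMatrix']
  have hA : A.IsHermitian := by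
    rw [Matrix.IsHermitian, Matrix.conjTranspose_eq_transpose_of_trivial]
    ext i j
    rw [Matrix.transpose_apply]
    have h := hsymm (Pi.single i 1) (Pi.single j 1)
    simp only [Pi.single_apply, ite_mul, one_mul, zero_mul, mul_ite, mul_one, mul_zero,
      Finset.sum_ite_eq', Finset.mem_univ, if_true] at h
    rw [hA_def, LinearMap.toMatrix'_apply, LinearMap.toMatrix'_apply]
    exact h.symm
  have key := quad_le_of_eigen A hA c (fun μ g hμ hg => by
    have hSg : S g = μ • g := by rw [hSA, hg]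
    have hμ0 : 0 < μ := lt_of_le_of_lt hc hμ
    have h1 : Ls g = 0 := by
      have := hLs g
      rw [hSg, hLs_smul, abs_of_pos hμ0] at this
      have h0 := hLs0 g
      nlinarith
    have h2 : Lc g = 0 := by
      have := hLc g
      rw [hSg, hLc_smul, abs_of_pos hμ0, h1] at this
      have h0 := hLc0 g
      nlinarith
    exact hconst g h1 h2) f hf
  have e1 : ∑ x, f x * S f x = f ⬝ᵥ (A *ᵥ f) := by
    rw [hSA]; rfl
  have e2 : ∑ x, f x ^ 2 = f ⬝ᵥ f := by
    simp [dotProduct, sq]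
  rw [e1, e2]; exact key

end Vale.Agent.Lib.P335.H8
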